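import Vale.Agent.Lib.P064S.Defs

/-!
# P064 (stars), S3b: the edges at an independent set of centres

If `I` is an independent set of `H` all of whose vertices have degree `d`, then the spanning
subgraph `meet H I` (the edges of `H` with an endpoint in `I`) has at least `#I * d` edges:
the pairs (centre `v ∈ I`, neighbour `w` of `v`) give pairwise distinct edges `s(v, w)`.
-/

namespace Vale.Agent.Lib.P064S

open Finset

theorem meet_edges {n : ℕ} (H : SimpleGraph (Fin n)) (I : Finset (Fin n)) (d : ℕ)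
    (hI : ∀ a ∈ I, ∀ b ∈ I, ¬ H.Adj a b) (hd : ∀ a ∈ I, (H.neighborSet a).ncard = d) :
    I.card * d ≤ (meet H I).edgeSet.ncard := by
  classical
  -- the pairs (centre, neighbour)
  set A : Finset (Σ _ : Fin n, Fin n) :=
    I.sigma (fun v => (univ : Finset (Fin n)).filter (fun w => H.Adj v w)) with hA
  have hdeg : ∀ v ∈ I, ((univ : Finset (Fin n)).filter (fun w => H.Adj v w)).card = d := by
    intro v hv
    rw [← hd v hv, ← Set.ncard_coe_finset]
    congr 1
    ext w
    simp [SimpleGraph.mem_neighborSet]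
  have hcardA : A.card = I.card * d := by
    rw [hA, Finset.card_sigma, Finset.sum_congr rfl hdeg, Finset.sum_const, smul_eq_mul]
  have hmem : ∀ p ∈ (A : Set (Σ _ : Fin n, Fin n)), p.1 ∈ I ∧ H.Adj p.1 p.2 := by
    intro p hp
    rw [Finset.mem_coe, hA, Finset.mem_sigma, Finset.mem_filter] at hp
    exact ⟨hp.1, hp.2.2⟩
  have hinj : Set.InjOn (fun p : (Σ _ : Fin n, Fin n) => s(p.1, p.2))
      (A : Set (Σ _ : Fin n, Fin n)) := by
    intro p hp q hq h
    have hp' := hmem p hp
    have hq' := hmem q hq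
    rcases Sym2.eq_iff.1 h with ⟨h1, h2⟩ | ⟨h1, h2⟩
    · obtain ⟨p1, p2⟩ := p
      obtain ⟨q1, q2⟩ := q
      simp only at h1 h2
      rw [h1, h2]
    · exfalso
      have h3 : H.Adj q.1 p.1 := by
        rw [h1]
        exact hq'.2
      exact hI q.1 hq'.1 p.1 hp'.1 h3
  have hmaps : ∀ p ∈ (A : Set (Σ _ : Fin n, Fin n)),
      (fun p : (Σ _ : Fin n, Fin n) => s(p.1, p.2)) p ∈ (meet H I).edgeSet := by
    intro p hp
    have hp' := hmem p hp
    show s(p.1, p.2) ∈ (meet H I).edgeSet
    rw [SimpleGraph.mem_edgeSet, meet_adj]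
    exact ⟨hp'.2, Or.inl hp'.1⟩
  have h3 : (A : Set (Σ _ : Fin n, Fin n)).ncard ≤ (meet H I).edgeSet.ncard :=
    Set.ncard_le_ncard_of_injOn _ hmaps hinj (Set.toFinite _)
  rw [Set.ncard_coe_finset] at h3
  rw [← hcardA]
  exact h3

end Vale.Agent.Lib.P064S
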