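import Vale.Agent.Lib.P064S.Defs

/-!
# P064 (stars): counting the copies of `meet H I` in the complete graph

If all vertices of `I` have `d` neighbours in `H`, the complete graph on `Fin n` contains at most
`C(n, #I) * C(n, d) ^ #I` copies of `meet H I`: a copy is a spanning subgraph which is determined
by the image `J` of `I` and the neighbourhoods of the vertices of `J`.
-/

namespace Vale.Agent.Lib.P064S
open Finset

/-- the neighbourhoods of the images of the vertices of `I` under an isomorphism -/
noncomputable def orbitData' {n : ℕ} (F : SimpleGraph (Fin n)) (I : Finset (Fin n))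
    (G' : (⊤ : SimpleGraph (Fin n)).Subgraph) (e : F ≃g G'.coe) : Fin n → Finset (Fin n) :=
  open Classical in
  fun x => if x ∈ I.image (fun v => ((e v : G'.verts) : Fin n)) then
      univ.filter (fun y => G'.Adj x y) else ∅

/-- the data of a copy: the neighbourhoods of the images of the vertices of `I` under a chosen
isomorphism -/
noncomputable def orbitData {n : ℕ} (F : SimpleGraph (Fin n)) (I : Finset (Fin n))
    (G' : (⊤ : SimpleGraph (Fin n)).Subgraph) : Fin n → Finset (Fin n) :=
  @dite _ (Nonempty (F ≃g G'.coe)) (Classical.propDecidable _)
    (fun h => orbitData' F I G' (Classical.choice h)) (fun _ => fun _ => ∅)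

theorem orbitData_eq {n : ℕ} (F : SimpleGraph (Fin n)) (I : Finset (Fin n))
    (G' : (⊤ : SimpleGraph (Fin n)).Subgraph) (h : Nonempty (F ≃g G'.coe)) :
    orbitData F I G' = orbitData' F I G' (Classical.choice h) := by
  unfold orbitData
  exact dif_pos h

theorem copyCount_meet_le {n : ℕ} (H : SimpleGraph (Fin n)) (I : Finset (Fin n)) (d : ℕ)
    (hI : ∀ a ∈ I, ∀ b ∈ I, ¬ H.Adj a b) (hd : ∀ a ∈ I, (H.neighborSet a).ncard = d) :
    (⊤ : SimpleGraph (Fin n)).copyCount (meet H I) ≤ n.choose I.card * (n.choose d) ^ I.card := by
  classical
  set F := meet H I with hF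
  -- the set of all possible data
  let S : Finset (Fin n → Finset (Fin n)) :=
    (powersetCard I.card (univ : Finset (Fin n))).biUnion
      (fun J => Fintype.piFinset (fun x => if x ∈ J then powersetCard d (univ : Finset (Fin n))
        else {∅}))
  have hS : S.card ≤ n.choose I.card * (n.choose d) ^ I.card := by
    refine (Finset.card_biUnion_le).trans ?_
    have h1 : ∀ J ∈ powersetCard I.card (univ : Finset (Fin n)),
        (Fintype.piFinset (fun x => if x ∈ J then powersetCard d (univ : Finset (Fin n))
          else {∅})).card = (n.choose d) ^ I.card := by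
      intro J hJ
      rw [Finset.mem_powersetCard] at hJ
      rw [Fintype.card_piFinset]
      have h2 : ∀ x : Fin n, (if x ∈ J then powersetCard d (univ : Finset (Fin n))
          else {∅}).card = if x ∈ J then n.choose d else 1 := by
        intro x
        split_ifs
        · rw [Finset.card_powersetCard, Finset.card_univ, Fintype.card_fin]
        · rfl
      rw [Finset.prod_congr rfl (fun x _ => h2 x), Finset.prod_ite_mem, Finset.univ_inter,
        Finset.prod_const, hJ.2]
    rw [Finset.sum_congr rfl h1, Finset.sum_const, Finset.card_powersetCard, Finset.card_univ,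
      Fintype.card_fin, smul_eq_mul]
  -- the copies
  rw [SimpleGraph.copyCount]
  refine (Finset.card_le_card_of_injOn (orbitData F I) ?_ ?_).trans hS
  · -- the data lie in `S`
    intro G' hG'
    rw [Finset.mem_coe, Finset.mem_filter] at hG'
    obtain ⟨-, hne⟩ := hG'
    set e := Classical.choice hne with he
    have hval : Function.Injective (fun v => (e v : Fin n)) := by
      intro a b hab
      exact e.injective (Subtype.ext hab)
    rw [Finset.mem_coe, Finset.mem_biUnion]
    refine ⟨I.image (fun v => (e v : Fin n)), ?_, ?_⟩
    · rw [Finset.mem_powersetCard]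
      exact ⟨Finset.subset_univ _, Finset.card_image_of_injective _ hval⟩
    · rw [Fintype.mem_piFinset]
      intro x
      have hdata : orbitData F I G' x = if x ∈ I.image (fun v => (e v : Fin n)) then
          univ.filter (fun y => G'.Adj x y) else ∅ := by
        rw [orbitData_eq F I G' hne]
        unfold orbitData'
        congr
      rw [hdata]
      by_cases hx : x ∈ I.image (fun v => (e v : Fin n))
      · rw [if_pos hx, if_pos hx, Finset.mem_powersetCard]
        refine ⟨Finset.subset_univ _, ?_⟩
        obtain ⟨v, hv, rfl⟩ := Finset.mem_image.mp hx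
        have h3 : univ.filter (fun y => G'.Adj (e v : Fin n) y)
            = (univ.filter (fun w => H.Adj v w)).image (fun w => (e w : Fin n)) := by
          ext y
          simp only [Finset.mem_filter, Finset.mem_univ, true_and, Finset.mem_image]
          constructor
          · intro hy
            have hyv : y ∈ G'.verts := G'.edge_vert hy.symm
            obtain ⟨w, hw⟩ := e.surjective ⟨y, hyv⟩
            have hwy : (e w : Fin n) = y := by rw [hw]
            refine ⟨w, ?_, hwy⟩
            have h4 : G'.coe.Adj (e v) (e w) := by
              rw [hw]
              exact hy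
            have h5 : F.Adj v w := e.map_rel_iff.mp h4
            exact ((meet_adj H I v w).mp h5).1
          · rintro ⟨w, hw, rfl⟩
            have h5 : F.Adj v w := (meet_adj H I v w).mpr ⟨hw, Or.inl hv⟩
            have h4 : G'.coe.Adj (e v) (e w) := e.map_rel_iff.mpr h5
            exact h4
        rw [h3, Finset.card_image_of_injective _ hval, ← hd v hv, ← Set.ncard_coe_finset]
        congr 1
        ext w
        simp
      · rw [if_neg hx, if_neg hx]
        exact Finset.mem_singleton_self _
  · -- a copy is determined by its data
    have key : ∀ G' : (⊤ : SimpleGraph (Fin n)).Subgraph, Nonempty (F ≃g G'.coe) →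
        G'.verts = Set.univ ∧ ∀ x y, G'.Adj x y ↔
          (y ∈ orbitData F I G' x ∨ x ∈ orbitData F I G' y) := by
      intro G' hne
      set e := Classical.choice hne with he
      have hdata : ∀ x, orbitData F I G' x = if x ∈ I.image (fun v => (e v : Fin n)) then
          univ.filter (fun y => G'.Adj x y) else ∅ := by
        intro x
        rw [orbitData_eq F I G' hne]
        unfold orbitData'
        congr
      have hverts : G'.verts = Set.univ :=
        (set_fintype_card_eq_univ_iff _).1 (Fintype.card_congr e.toEquiv.symm)
      refine ⟨hverts, fun x y => ?_⟩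
      constructor
      · intro hxy
        have hxv : x ∈ G'.verts := G'.edge_vert hxy
        have hyv : y ∈ G'.verts := G'.edge_vert hxy.symm
        obtain ⟨a, ha⟩ := e.surjective ⟨x, hxv⟩
        obtain ⟨b, hb⟩ := e.surjective ⟨y, hyv⟩
        have hax : (e a : Fin n) = x := by rw [ha]
        have hby : (e b : Fin n) = y := by rw [hb]
        have h4 : G'.coe.Adj (e a) (e b) := by
          rw [ha, hb]
          exact hxy
        have h5 : F.Adj a b := e.map_rel_iff.mp h4
        rcases ((meet_adj H I a b).mp h5).2 with haI | hbI
        · left
          rw [hdata x, if_pos (Finset.mem_image.mpr ⟨a, haI, hax⟩)]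
          simp [hxy]
        · right
          rw [hdata y, if_pos (Finset.mem_image.mpr ⟨b, hbI, hby⟩)]
          simp [hxy.symm]
      · rintro (h | h)
        · rw [hdata x] at h
          split_ifs at h with hx
          · simpa using h
          · simp at h
        · rw [hdata y] at h
          split_ifs at h with hy
          · have : G'.Adj y x := by simpa using h
            exact this.symm
          · simp at h
    intro G₁ h₁ G₂ h₂ hg
    rw [Finset.mem_coe, Finset.mem_filter] at h₁ h₂
    obtain ⟨hv₁, ha₁⟩ := key G₁ h₁.2
    obtain ⟨hv₂, ha₂⟩ := key G₂ h₂.2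
    apply SimpleGraph.Subgraph.ext
    · rw [hv₁, hv₂]
    · ext x y
      rw [ha₁, ha₂, hg]

end Vale.Agent.Lib.P064S
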