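import Mathlib

/-!
# P064 (stars): arithmetic lemmas for the final summation
-/

namespace Vale.Agent.Lib.P064S
open Finset

/-- `(d)_k * N^k ≤ (N)_k * d^k` for `d ≤ N`. -/
theorem desc_pow (N d k : ℕ) (h : d ≤ N) :
    d.descFactorial k * N ^ k ≤ N.descFactorial k * d ^ k := by
  induction k with
  | zero => simp
  | succ k ih =>
    rw [Nat.descFactorial_succ, Nat.descFactorial_succ, pow_succ, pow_succ]
    have h1 : (d - k) * N ≤ (N - k) * d := by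
      rcases le_or_gt k d with hk | hk
      · have hkN : k ≤ N := hk.trans h
        zify [hk, hkN]
        have h' : (d : ℤ) ≤ N := by exact_mod_cast h
        have hk0 : (0 : ℤ) ≤ k := by positivity
        nlinarith [mul_le_mul_of_nonneg_left h' hk0]
      · simp [Nat.sub_eq_zero_of_le hk.le]
    calc (d - k) * d.descFactorial k * (N ^ k * N)
        = (d.descFactorial k * N ^ k) * ((d - k) * N) := by ring
      _ ≤ (N.descFactorial k * d ^ k) * ((N - k) * d) := Nat.mul_le_mul ih h1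
      _ = (N - k) * N.descFactorial k * (d ^ k * d) := by ring

theorem geom_sum (k M : ℕ) :
    ∑ j ∈ range M, ((k : ℝ) + 1 + j) * (1 / 2 : ℝ) ^ j
      = 2 * k + 4 - 2 * ((k : ℝ) + M + 2) * (1 / 2 : ℝ) ^ M := by
  induction M with
  | zero => simp; ring
  | succ M ih =>
    rw [Finset.sum_range_succ, ih, pow_succ]
    push_cast
    ring

theorem geom_Ico (k n : ℕ) :
    ∑ d ∈ Ico k n, ((d : ℝ) + 1) * (1 / 2 : ℝ) ^ (d - k) ≤ 2 * k + 4 := by
  rw [Finset.sum_Ico_eq_sum_range]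
  have h : ∀ j ∈ range (n - k),
      (((k + j : ℕ) : ℝ) + 1) * (1 / 2 : ℝ) ^ (k + j - k) = ((k : ℝ) + 1 + j) * (1 / 2 : ℝ) ^ j := by
    intro j _
    rw [Nat.add_sub_cancel_left]
    push_cast
    ring
  rw [Finset.sum_congr rfl h, geom_sum]
  have : (0 : ℝ) ≤ 2 * ((k : ℝ) + (n - k : ℕ) + 2) * (1 / 2 : ℝ) ^ (n - k) := by positivity
  linarith

theorem const_bound (k : ℕ) (hk : 1 ≤ k) :
    (6 : ℝ) ^ k + 3 * (2 * (k : ℝ) + 4) * 3 ^ k ≤ 60 ^ k := by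
  induction k, hk using Nat.le_induction with
  | base => norm_num
  | succ k hk ih =>
    have h6 : (0 : ℝ) < 6 ^ k := by positivity
    have h3 : (0 : ℝ) < 3 ^ k := by positivity
    have hk0 : (0 : ℝ) ≤ k := by positivity
    have e1 : (60 : ℝ) ^ (k + 1) = 60 * 60 ^ k := by ring
    have e2 : (6 : ℝ) ^ (k + 1) = 6 * 6 ^ k := by ring
    have e3 : (3 : ℝ) ^ (k + 1) = 3 * 3 ^ k := by ring
    rw [e1, e2, e3]
    push_cast
    nlinarith [mul_nonneg hk0 h3.le]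

/-- One degree class: from the class bound `a * d^d ≤ (d+1) (3n) (3x)^d` to a bound on
`a * d^k`, `k ≤ d`. -/
theorem class_step (a x n : ℝ) (d k : ℕ) (ha : 0 ≤ a) (hx : 0 ≤ x) (hn : 0 ≤ n) (hk : k ≤ d)
    (hd : 1 ≤ d)
    (hB : a * (d : ℝ) ^ d ≤ ((d : ℝ) + 1) * (3 * n) * (3 * x) ^ d) :
    a * (d : ℝ) ^ k ≤
      a * (6 * x) ^ k + ((d : ℝ) + 1) * (3 * n) * (3 * x) ^ k * (1 / 2 : ℝ) ^ (d - k) := by
  have hd0 : (0 : ℝ) ≤ d := by positivity
  rcases le_or_gt (d : ℝ) (6 * x) with h | h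
  · have h1 : (d : ℝ) ^ k ≤ (6 * x) ^ k := pow_le_pow_left₀ hd0 h k
    have h2 : 0 ≤ ((d : ℝ) + 1) * (3 * n) * (3 * x) ^ k * (1 / 2 : ℝ) ^ (d - k) := by positivity
    nlinarith [mul_le_mul_of_nonneg_left h1 ha]
  · have hdpos : (0 : ℝ) < d := by exact_mod_cast hd
    have h3 : (3 * x) ^ (d - k) ≤ (d : ℝ) ^ (d - k) * (1 / 2 : ℝ) ^ (d - k) := by
      rw [← mul_pow]
      exact pow_le_pow_left₀ (by positivity) (by linarith) _
    have hsplit : (d : ℝ) ^ d = (d : ℝ) ^ k * (d : ℝ) ^ (d - k) := by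
      rw [← pow_add, Nat.add_sub_cancel' hk]
    have hsplit2 : (3 * x) ^ d = (3 * x) ^ k * (3 * x) ^ (d - k) := by
      rw [← pow_add, Nat.add_sub_cancel' hk]
    have hpos : 0 < (d : ℝ) ^ (d - k) := by positivity
    have h4 : a * (d : ℝ) ^ k * (d : ℝ) ^ (d - k) ≤
        (((d : ℝ) + 1) * (3 * n) * (3 * x) ^ k * (1 / 2 : ℝ) ^ (d - k)) * (d : ℝ) ^ (d - k) := by
      calc a * (d : ℝ) ^ k * (d : ℝ) ^ (d - k) = a * (d : ℝ) ^ d := by rw [hsplit]; ring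
        _ ≤ ((d : ℝ) + 1) * (3 * n) * (3 * x) ^ d := hB
        _ = ((d : ℝ) + 1) * (3 * n) * (3 * x) ^ k * (3 * x) ^ (d - k) := by rw [hsplit2]; ring
        _ ≤ ((d : ℝ) + 1) * (3 * n) * (3 * x) ^ k * ((d : ℝ) ^ (d - k) * (1 / 2 : ℝ) ^ (d - k)) := by
            apply mul_le_mul_of_nonneg_left h3; positivity
        _ = _ := by ring
    have h5 : a * (d : ℝ) ^ k ≤ ((d : ℝ) + 1) * (3 * n) * (3 * x) ^ k * (1 / 2 : ℝ) ^ (d - k) :=
      le_of_mul_le_mul_right h4 hpos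
    have h6 : 0 ≤ a * (6 * x) ^ k := by positivity
    linarith

end Vale.Agent.Lib.P064S
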