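import Vale.Agent.Lib.P064S.Defs

/-!
# P064 (stars): a maximal independent subset

Inside a set `A` of vertices of degree at most `d` there is a set `I` of pairwise non-adjacent
vertices with `#A ≤ (d + 1) * #I`.
-/

namespace Vale.Agent.Lib.P064S
open Finset

open Classical in
theorem ncard_nbr {n : ℕ} (H : SimpleGraph (Fin n)) (b : Fin n) :
    (H.neighborSet b).ncard = (univ.filter (fun x => H.Adj b x)).card := by
  rw [← Set.ncard_coe_finset]
  congr 1
  ext x
  simp

theorem exists_indep {n : ℕ} (H : SimpleGraph (Fin n)) (A : Finset (Fin n)) (d : ℕ)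
    (hA : ∀ a ∈ A, (H.neighborSet a).ncard ≤ d) :
    ∃ I : Finset (Fin n), I ⊆ A ∧ (∀ a ∈ I, ∀ b ∈ I, ¬ H.Adj a b) ∧
      A.card ≤ (d + 1) * I.card := by
  classical
  let P : Finset (Finset (Fin n)) :=
    A.powerset.filter (fun I => ∀ a ∈ I, ∀ b ∈ I, ¬ H.Adj a b)
  have hne : P.Nonempty := ⟨∅, by simp [P]⟩
  obtain ⟨I, hIP, hmax⟩ := Finset.exists_max_image P Finset.card hne
  have hIP' : I ⊆ A ∧ ∀ a ∈ I, ∀ b ∈ I, ¬ H.Adj a b := by
    simpa [P] using hIP
  obtain ⟨hIA, hind⟩ := hIP'
  refine ⟨I, hIA, hind, ?_⟩
  -- every vertex of `A \ I` has a neighbour in `I`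
  have hcov : A \ I ⊆ I.biUnion (fun b => univ.filter (fun x => H.Adj b x)) := by
    intro a ha
    rw [Finset.mem_sdiff] at ha
    obtain ⟨haA, haI⟩ := ha
    by_contra hcon
    have hno : ∀ b ∈ I, ¬ H.Adj b a := by
      intro b hb hadj
      apply hcon
      rw [Finset.mem_biUnion]
      exact ⟨b, hb, by simp [hadj]⟩
    have hmem : insert a I ∈ P := by
      have h1 : insert a I ⊆ A := Finset.insert_subset haA hIA
      have h2 : ∀ x ∈ insert a I, ∀ y ∈ insert a I, ¬ H.Adj x y := by
        intro x hx y hy
        rw [Finset.mem_insert] at hx hy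
        rcases hx with rfl | hx
        · rcases hy with rfl | hy
          · exact H.loopless.irrefl _
          · exact fun h => hno y hy h.symm
        · rcases hy with rfl | hy
          · exact hno x hx
          · exact hind x hx y hy
      simp only [P, Finset.mem_filter, Finset.mem_powerset]
      exact ⟨h1, h2⟩
    have := hmax _ hmem
    rw [Finset.card_insert_of_notMem haI] at this
    omega
  have h1 : (A \ I).card ≤ I.card * d := by
    calc (A \ I).card ≤ (I.biUnion (fun b => univ.filter (fun x => H.Adj b x))).card :=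
          Finset.card_le_card hcov
      _ ≤ ∑ b ∈ I, (univ.filter (fun x => H.Adj b x)).card := Finset.card_biUnion_le
      _ ≤ ∑ _b ∈ I, d := by
          apply Finset.sum_le_sum
          intro b hb
          rw [← ncard_nbr]
          exact hA b (hIA hb)
      _ = I.card * d := by rw [Finset.sum_const, smul_eq_mul]
  have h2 : A.card = (A \ I).card + I.card := by
    rw [Finset.card_sdiff_of_subset hIA]
    have := Finset.card_le_card hIA
    omega
  rw [h2]
  nlinarith
end Vale.Agent.Lib.P064S
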