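import Vale.Agent.Lib.P064S.Orbit
import Vale.Agent.Lib.P064S.Edges
import Vale.Agent.Lib.P064S.Indep

/-!
# P064 (stars): the class bound

`choose_mul_pow_le`: `C(n,s) * s^s ≤ (3n)^s`, and `class_bound`: the number of vertices of
degree exactly `d` in `H`, times `d^d`, is at most `(d+1) * 3n * (3nq)^d` under the hypothesis
that every subgraph of `H` has expected count at least one at density `q`.
-/

namespace Vale.Agent.Lib.P064S

open Finset

theorem choose_mul_pow_le (n s : ℕ) : (n.choose s : ℝ) * (s : ℝ) ^ s ≤ (3 * (n : ℝ)) ^ s := by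
  have h1 : (n.choose s : ℝ) ≤ (n : ℝ) ^ s / (s.factorial : ℝ) := Nat.choose_le_pow_div s n
  have h2 : (s : ℝ) ^ s / (s.factorial : ℝ) ≤ Real.exp (s : ℝ) :=
    Real.pow_div_factorial_le_exp (s : ℝ) (Nat.cast_nonneg s) s
  have h3 : Real.exp (s : ℝ) ≤ (3 : ℝ) ^ s := by
    have : Real.exp (s : ℝ) = (Real.exp 1) ^ s := by
      rw [← Real.exp_nat_mul, mul_one]
    rw [this]
    exact pow_le_pow_left₀ (Real.exp_pos 1).le Real.exp_one_lt_three.le s
  have hs : (0 : ℝ) ≤ (s : ℝ) ^ s := by positivity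
  have hn : (0 : ℝ) ≤ (n : ℝ) ^ s := by positivity
  have hf : (0 : ℝ) < (s.factorial : ℝ) := by exact_mod_cast s.factorial_pos
  calc (n.choose s : ℝ) * (s : ℝ) ^ s
      ≤ (n : ℝ) ^ s / (s.factorial : ℝ) * (s : ℝ) ^ s := mul_le_mul_of_nonneg_right h1 hs
    _ = (n : ℝ) ^ s * ((s : ℝ) ^ s / (s.factorial : ℝ)) := by ring
    _ ≤ (n : ℝ) ^ s * (3 : ℝ) ^ s := mul_le_mul_of_nonneg_left (h2.trans h3) hn
    _ = (3 * (n : ℝ)) ^ s := by rw [mul_pow]; ring

theorem class_bound {n : ℕ} (H : SimpleGraph (Fin n)) (q : ℝ) (hq0 : 0 ≤ q) (hq1 : q ≤ 1)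
    (hyp : ∀ F : SimpleGraph (Fin n), F ≤ H →
      1 ≤ ((⊤ : SimpleGraph (Fin n)).copyCount F : ℝ) * q ^ F.edgeSet.ncard)
    (d : ℕ) (hd : 1 ≤ d) :
    ((univ.filter (fun v : Fin n => (H.neighborSet v).ncard = d)).card : ℝ) * (d : ℝ) ^ d
      ≤ ((d : ℝ) + 1) * (3 * (n : ℝ)) * (3 * (n : ℝ) * q) ^ d := by
  classical
  set A : Finset (Fin n) := univ.filter (fun v : Fin n => (H.neighborSet v).ncard = d) with hA
  have hAd : ∀ a ∈ A, (H.neighborSet a).ncard = d := by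
    intro a ha
    exact (Finset.mem_filter.1 ha).2
  obtain ⟨I, hIA, hIind, hcard⟩ := exists_indep H A d (fun a ha => (hAd a ha).le)
  have hId : ∀ a ∈ I, (H.neighborSet a).ncard = d := fun a ha => hAd a (hIA ha)
  set s : ℕ := I.card with hs
  have hn0 : (0 : ℝ) ≤ (n : ℝ) := Nat.cast_nonneg n
  have hd0 : (0 : ℝ) ≤ (d : ℝ) := Nat.cast_nonneg d
  have hdd : (0 : ℝ) ≤ (d : ℝ) ^ d := by positivity
  have hR : (0 : ℝ) ≤ 3 * (n : ℝ) * (3 * (n : ℝ) * q) ^ d := by positivity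
  have hcardR : (A.card : ℝ) ≤ ((d : ℝ) + 1) * (s : ℝ) := by exact_mod_cast hcard
  -- the key inequality: s * d^d ≤ 3n (3nq)^d
  have key : (s : ℝ) * (d : ℝ) ^ d ≤ 3 * (n : ℝ) * (3 * (n : ℝ) * q) ^ d := by
    rcases Nat.eq_zero_or_pos s with hs0 | hspos
    · rw [hs0]
      simpa using hR
    · have h1 := hyp (meet H I) (meet_le H I)
      have h2 : ((⊤ : SimpleGraph (Fin n)).copyCount (meet H I) : ℝ)
          ≤ (n.choose s : ℝ) * (n.choose d : ℝ) ^ s := by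
        exact_mod_cast copyCount_meet_le H I d hIind hId
      have h3 : s * d ≤ (meet H I).edgeSet.ncard := meet_edges H I d hIind hId
      have h4 : q ^ (meet H I).edgeSet.ncard ≤ q ^ (s * d) :=
        pow_le_pow_of_le_one hq0 hq1 h3
      have hqs : (0 : ℝ) ≤ q ^ (s * d) := by positivity
      have hcc : (0 : ℝ) ≤ ((⊤ : SimpleGraph (Fin n)).copyCount (meet H I) : ℝ) :=
        Nat.cast_nonneg _
      have h5 : (1 : ℝ) ≤ (n.choose s : ℝ) * (n.choose d : ℝ) ^ s * q ^ (s * d) := by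
        calc (1 : ℝ) ≤ ((⊤ : SimpleGraph (Fin n)).copyCount (meet H I) : ℝ)
              * q ^ (meet H I).edgeSet.ncard := h1
          _ ≤ ((⊤ : SimpleGraph (Fin n)).copyCount (meet H I) : ℝ) * q ^ (s * d) :=
              mul_le_mul_of_nonneg_left h4 hcc
          _ ≤ (n.choose s : ℝ) * (n.choose d : ℝ) ^ s * q ^ (s * d) :=
              mul_le_mul_of_nonneg_right h2 hqs
      have h6 : (n.choose s : ℝ) * (s : ℝ) ^ s ≤ (3 * (n : ℝ)) ^ s := choose_mul_pow_le n s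
      have h7 : (n.choose d : ℝ) * (d : ℝ) ^ d ≤ (3 * (n : ℝ)) ^ d := choose_mul_pow_le n d
      have h8 : ((n.choose d : ℝ) * (d : ℝ) ^ d) ^ s ≤ ((3 * (n : ℝ)) ^ d) ^ s :=
        pow_le_pow_left₀ (by positivity) h7 s
      have hpow : ((s : ℝ) * (d : ℝ) ^ d) ^ s ≤ (3 * (n : ℝ) * (3 * (n : ℝ) * q) ^ d) ^ s := by
        have hL : (0 : ℝ) ≤ (s : ℝ) ^ s * ((d : ℝ) ^ d) ^ s := by positivity
        calc ((s : ℝ) * (d : ℝ) ^ d) ^ s = (s : ℝ) ^ s * ((d : ℝ) ^ d) ^ s * 1 := by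
              rw [mul_pow, mul_one]
          _ ≤ (s : ℝ) ^ s * ((d : ℝ) ^ d) ^ s
              * ((n.choose s : ℝ) * (n.choose d : ℝ) ^ s * q ^ (s * d)) :=
              mul_le_mul_of_nonneg_left h5 hL
          _ = ((n.choose s : ℝ) * (s : ℝ) ^ s) * ((n.choose d : ℝ) * (d : ℝ) ^ d) ^ s
              * q ^ (s * d) := by
              rw [mul_pow]; ring
          _ ≤ (3 * (n : ℝ)) ^ s * ((3 * (n : ℝ)) ^ d) ^ s * q ^ (s * d) := by
              apply mul_le_mul_of_nonneg_right _ hqs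
              exact mul_le_mul h6 h8 (by positivity) (by positivity)
          _ = (3 * (n : ℝ) * (3 * (n : ℝ) * q) ^ d) ^ s := by
              rw [mul_pow (3 * (n : ℝ)) ((3 * (n : ℝ) * q) ^ d) s, mul_pow (3 * (n : ℝ)) q d,
                mul_pow ((3 * (n : ℝ)) ^ d) (q ^ d) s, ← pow_mul q d s, mul_comm d s]
              ring
      exact le_of_pow_le_pow_left₀ (Nat.pos_iff_ne_zero.1 hspos) hR hpow
  calc (A.card : ℝ) * (d : ℝ) ^ d ≤ ((d : ℝ) + 1) * (s : ℝ) * (d : ℝ) ^ d :=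
        mul_le_mul_of_nonneg_right hcardR hdd
    _ = ((d : ℝ) + 1) * ((s : ℝ) * (d : ℝ) ^ d) := by ring
    _ ≤ ((d : ℝ) + 1) * (3 * (n : ℝ) * (3 * (n : ℝ) * q) ^ d) :=
        mul_le_mul_of_nonneg_left key (by positivity)
    _ = ((d : ℝ) + 1) * (3 * (n : ℝ)) * (3 * (n : ℝ) * q) ^ d := by ring

end Vale.Agent.Lib.P064S
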