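import Mathlib

/-!
# P064 (stars): shared definitions

`Star k` is the star `K_{1,k}` (centre `none`, leaves `some i`), and `meet H I` is the spanning
subgraph of `H` formed by the edges of `H` with an endpoint in `I`.
-/

namespace Vale.Agent.Lib.P064S

/-- The star `K_{1,k}` on `Option (Fin k)`: the centre `none` is joined to every leaf `some i`,
and there are no other edges. -/
def Star (k : ℕ) : SimpleGraph (Option (Fin k)) :=
  SimpleGraph.fromRel (fun a b => a = none ∧ b ≠ none)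

/-- The spanning subgraph of `H` formed by the edges of `H` having an endpoint in `I`. -/
def meet {n : ℕ} (H : SimpleGraph (Fin n)) (I : Finset (Fin n)) : SimpleGraph (Fin n) :=
  SimpleGraph.fromRel (fun a b => H.Adj a b ∧ a ∈ I)

theorem star_adj {k : ℕ} (a b : Option (Fin k)) :
    (Star k).Adj a b ↔ (a = none ∧ b ≠ none) ∨ (b = none ∧ a ≠ none) := by
  unfold Star
  rw [SimpleGraph.fromRel_adj]
  constructor
  · rintro ⟨_, h⟩; exact h
  · intro h
    refine ⟨?_, h⟩
    rcases h with ⟨h1, h2⟩ | ⟨h1, h2⟩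
    · rw [h1]; exact fun h => h2 h.symm
    · rw [h1]; exact h2

theorem meet_adj {n : ℕ} (H : SimpleGraph (Fin n)) (I : Finset (Fin n)) (a b : Fin n) :
    (meet H I).Adj a b ↔ H.Adj a b ∧ (a ∈ I ∨ b ∈ I) := by
  unfold meet
  rw [SimpleGraph.fromRel_adj]
  constructor
  · rintro ⟨_, ⟨h1, h2⟩ | ⟨h1, h2⟩⟩
    · exact ⟨h1, Or.inl h2⟩
    · exact ⟨h1.symm, Or.inr h2⟩
  · rintro ⟨h1, h2 | h2⟩
    · exact ⟨h1.ne, Or.inl ⟨h1, h2⟩⟩
    · exact ⟨h1.ne, Or.inr ⟨h1.symm, h2⟩⟩

theorem meet_le {n : ℕ} (H : SimpleGraph (Fin n)) (I : Finset (Fin n)) : meet H I ≤ H := by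
  intro a b h
  exact ((meet_adj H I a b).1 h).1

end Vale.Agent.Lib.P064S
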