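import Vale.Agent.Lib.P064S.Defs

/-!
# P064 (stars): counting labelled stars by their centre

A labelled copy of the star `K_{1,k}` in a graph `H` is determined by the image `v` of the centre
and an injection of the `k` leaves into the neighbourhood of `v`.  Hence the number of labelled
copies is at most the sum over `v` of the falling factorial of the degree of `v`.
-/

namespace Vale.Agent.Lib.P064S
open Finset

/-- The map sending a copy of a star-like graph (a centre `c` joined to the leaves `leaf i`) to the
pair consisting of the image of the centre and the induced injection of the leaves into the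
neighbourhood of that image. -/
def copyToSigma {V W : Type*}
    (H : SimpleGraph V) (S : SimpleGraph W) (k : ℕ)
    (c : W) (leaf : Fin k → W) (hleaf : Function.Injective leaf)
    (hadj : ∀ i, S.Adj c (leaf i)) (f : SimpleGraph.Copy S H) :
    Σ v : V, (Fin k ↪ H.neighborSet v) :=
  ⟨f c, ⟨fun i => ⟨f (leaf i), f.toHom.map_adj (hadj i)⟩, fun i j h => by
      have h1 : f (leaf i) = f (leaf j) := congrArg Subtype.val h
      exact hleaf (f.injective h1)⟩⟩

theorem copyToSigma_injective {V W : Type*}
    (H : SimpleGraph V) (S : SimpleGraph W) (k : ℕ)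
    (c : W) (leaf : Fin k → W) (hleaf : Function.Injective leaf)
    (hadj : ∀ i, S.Adj c (leaf i)) (hcover : ∀ w, w = c ∨ ∃ i, w = leaf i) :
    Function.Injective (copyToSigma H S k c leaf hleaf hadj) := by
  intro f g h
  have h1 : f c = g c := congrArg Sigma.fst h
  have key : ∀ (x y : Σ v : V, (Fin k ↪ H.neighborSet v)), x = y →
      ∀ i, ((x.2 i : H.neighborSet x.1) : V) = ((y.2 i : H.neighborSet y.1) : V) := by
    intro x y hxy i
    subst hxy
    rfl
  apply SimpleGraph.Copy.ext
  intro w
  rcases hcover w with rfl | ⟨i, rfl⟩
  · exact h1
  · exact key _ _ h i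

/-- Counting copies of a star-like graph, for an arbitrary `Fintype` structure on the copies. -/
theorem card_copy_le_of_star {V W : Type*} [Fintype V]
    (H : SimpleGraph V) (S : SimpleGraph W) (k : ℕ)
    (c : W) (leaf : Fin k → W) (hleaf : Function.Injective leaf)
    (hadj : ∀ i, S.Adj c (leaf i)) (hcover : ∀ w, w = c ∨ ∃ i, w = leaf i)
    (inst : Fintype (SimpleGraph.Copy S H)) :
    @Fintype.card (SimpleGraph.Copy S H) inst ≤
      ∑ v, ((H.neighborSet v).ncard).descFactorial k := by
  classical
  calc @Fintype.card (SimpleGraph.Copy S H) inst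
      ≤ Fintype.card (Σ v : V, (Fin k ↪ H.neighborSet v)) :=
        Fintype.card_le_of_injective _ (copyToSigma_injective H S k c leaf hleaf hadj hcover)
    _ = ∑ v, ((H.neighborSet v).ncard).descFactorial k := by
        rw [Fintype.card_sigma]
        refine Finset.sum_congr rfl fun v _ => ?_
        rw [Fintype.card_embedding_eq, Fintype.card_fin]
        congr 1
        rw [← Nat.card_coe_set_eq, Nat.card_eq_fintype_card]

/-- S1: the number of labelled copies of the star `K_{1,k}` in `H` is at most the sum over the
vertices `v` of the falling factorial `deg(v) (deg(v) - 1) ... (deg(v) - k + 1)`. -/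
theorem labelled_star_le {n : ℕ} (H : SimpleGraph (Fin n)) (k : ℕ) :
    H.labelledCopyCount (Star k) ≤ ∑ v : Fin n, ((H.neighborSet v).ncard).descFactorial k := by
  unfold SimpleGraph.labelledCopyCount
  refine card_copy_le_of_star H (Star k) k none some (Option.some_injective _) ?_ ?_ _
  · intro i
    exact (star_adj none (some i)).2 (Or.inl ⟨rfl, by simp⟩)
  · intro w
    cases w with
    | none => exact Or.inl rfl
    | some i => exact Or.inr ⟨i, rfl⟩

end Vale.Agent.Lib.P064S
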