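import Vale.Agent.Lib.P064S.Defs

/-!
# P064 (stars): labelled copies of a star in the complete graph
-/

namespace Vale.Agent.Lib.P064S
open Finset

theorem labelled_star_top (n k : ℕ) :
    (⊤ : SimpleGraph (Fin n)).labelledCopyCount (Star k) = n.descFactorial (k + 1) := by
  classical
  unfold SimpleGraph.labelledCopyCount
  have e : SimpleGraph.Copy (Star k) (⊤ : SimpleGraph (Fin n)) ≃ (Option (Fin k) ↪ Fin n) :=
    { toFun := fun f => f.toEmbedding
      invFun := fun e => ⟨⟨e, fun {a b} h => by
        have : a ≠ b := h.ne
        simpa using e.injective.ne this⟩, e.injective⟩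
      left_inv := fun f => by ext; rfl
      right_inv := fun e => by ext; rfl }
  rw [Fintype.card_eq_nat_card, Nat.card_congr e, Nat.card_eq_fintype_card,
    Fintype.card_embedding_eq]
  simp

end Vale.Agent.Lib.P064S
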