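import Vale.Agent.Lib.P064S.Defs
import Vale.Agent.Lib.P064S.Indep
import Vale.Agent.Lib.P064S.Top
import Vale.Agent.Lib.P064S.Arith
import Vale.Agent.Lib.P064S.StarCount
import Vale.Agent.Lib.P064S.ClassBound

/-!
# P064 (stars): the final summation

`sum_desc_le`: under the hypothesis that every subgraph of `H` has expected count at least one
at density `q`, the sum over the vertices of the falling factorials `(deg v)_k` is at most
`(n)_{k+1} (120 q)^k`.  `main`: the counting inequality for labelled copies of the star.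
-/

namespace Vale.Agent.Lib.P064S
open Finset

theorem deg_le {n : ℕ} (H : SimpleGraph (Fin n)) (v : Fin n) :
    (H.neighborSet v).ncard ≤ n - 1 := by
  classical
  rw [ncard_nbr]
  calc (univ.filter (fun x => H.Adj v x)).card ≤ (univ.erase v).card := by
        apply Finset.card_le_card
        intro x hx
        simp only [Finset.mem_filter, Finset.mem_univ, true_and] at hx
        simp only [Finset.mem_erase, Finset.mem_univ, and_true]
        exact hx.ne'
    _ = n - 1 := by simp [Finset.card_erase_of_mem]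

/-- The sum of the falling factorials of the degrees, under the hypothesis. -/
theorem sum_desc_le {n : ℕ} (H : SimpleGraph (Fin n)) (q : ℝ) (hq0 : 0 ≤ q) (hq1 : q ≤ 1)
    (hyp : ∀ F : SimpleGraph (Fin n), F ≤ H →
      1 ≤ ((⊤ : SimpleGraph (Fin n)).copyCount F : ℝ) * q ^ F.edgeSet.ncard)
    (k : ℕ) (hk : 1 ≤ k) :
    (∑ v : Fin n, (((H.neighborSet v).ncard).descFactorial k : ℝ)) ≤
      (n.descFactorial (k + 1) : ℝ) * (120 * q) ^ k := by
  classical
  set D : Fin n → ℕ := fun v => (H.neighborSet v).ncard with hD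
  have hDle : ∀ v, D v ≤ n - 1 := fun v => deg_le H v
  rcases Nat.lt_or_ge n 2 with hn | hn
  · -- no edges at all
    have h0 : ∀ v : Fin n, ((D v).descFactorial k : ℝ) = 0 := by
      intro v
      have hv : D v = 0 := by have := hDle v; omega
      have : (D v).descFactorial k = 0 := by
        rw [Nat.descFactorial_eq_zero_iff_lt]; omega
      exact_mod_cast this
    rw [Finset.sum_eq_zero (fun v _ => h0 v)]
    positivity
  · obtain ⟨N, rfl⟩ : ∃ N, n = N + 1 := ⟨n - 1, by omega⟩
    have hN1 : 1 ≤ N := by omega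
    have hDle' : ∀ v, D v ≤ N := fun v => by have := hDle v; simpa using this
    set a : ℕ → ℝ := fun d => ((univ.filter (fun v : Fin (N + 1) => D v = d)).card : ℝ) with ha
    have ha0 : ∀ d, 0 ≤ a d := fun d => by positivity
    set x : ℝ := ((N + 1 : ℕ) : ℝ) * q with hx
    have hx0 : 0 ≤ x := by positivity
    set Nk : ℝ := (N.descFactorial k : ℝ) with hNk
    have hNk0 : 0 ≤ Nk := by positivity
    have hNr : (0 : ℝ) < (N : ℝ) := by exact_mod_cast hN1
    -- regroup by degree
    have hregroup : (∑ v : Fin (N + 1), ((D v).descFactorial k : ℝ)) =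
        ∑ d ∈ range (N + 1), a d * (d.descFactorial k : ℝ) := by
      have hmaps : ∀ v ∈ (univ : Finset (Fin (N + 1))), D v ∈ range (N + 1) := by
        intro v _
        rw [Finset.mem_range]
        have := hDle' v
        omega
      rw [← Finset.sum_fiberwise_of_maps_to hmaps (fun v => ((D v).descFactorial k : ℝ))]
      apply Finset.sum_congr rfl
      intro d _
      have : ∀ v ∈ univ.filter (fun v : Fin (N + 1) => D v = d),
          ((D v).descFactorial k : ℝ) = (d.descFactorial k : ℝ) := by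
        intro v hv
        rw [(Finset.mem_filter.1 hv).2]
      rw [Finset.sum_congr rfl this, Finset.sum_const, nsmul_eq_mul]
    have hrestrict : (∑ d ∈ range (N + 1), a d * (d.descFactorial k : ℝ)) =
        ∑ d ∈ Ico k (N + 1), a d * (d.descFactorial k : ℝ) := by
      symm
      apply Finset.sum_subset
      · intro d hd
        rw [Finset.mem_Ico] at hd
        rw [Finset.mem_range]
        exact hd.2
      · intro d hd hd'
        rw [Finset.mem_range] at hd
        rw [Finset.mem_Ico] at hd'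
        have hlt : d < k := by omega
        have : d.descFactorial k = 0 := by
          rw [Nat.descFactorial_eq_zero_iff_lt]; exact hlt
        rw [this]; simp
    -- total number of vertices
    have hcount : (∑ d ∈ Ico k (N + 1), a d) ≤ ((N + 1 : ℕ) : ℝ) := by
      have h1 : (∑ d ∈ Ico k (N + 1), a d) ≤ ∑ d ∈ range (N + 1), a d := by
        apply Finset.sum_le_sum_of_subset_of_nonneg
        · intro d hd
          rw [Finset.mem_Ico] at hd
          rw [Finset.mem_range]
          exact hd.2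
        · intro d _ _
          exact ha0 d
      have h2 : (∑ d ∈ range (N + 1), a d) = ((N + 1 : ℕ) : ℝ) := by
        have hmaps : ∀ v ∈ (univ : Finset (Fin (N + 1))), D v ∈ range (N + 1) := by
          intro v _
          rw [Finset.mem_range]
          have := hDle' v
          omega
        have h3 := Finset.card_eq_sum_card_fiberwise hmaps
        rw [Finset.card_univ, Fintype.card_fin] at h3
        have h4 : ((N + 1 : ℕ) : ℝ) = ∑ d ∈ range (N + 1),
            ((univ.filter (fun v : Fin (N + 1) => D v = d)).card : ℝ) := by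
          exact_mod_cast h3
        exact h4.symm
      linarith
    -- per-class bound
    have hper : ∀ d ∈ Ico k (N + 1),
        (N : ℝ) ^ k * (a d * (d.descFactorial k : ℝ)) ≤
          Nk * (a d * (6 * x) ^ k +
            ((d : ℝ) + 1) * (3 * ((N + 1 : ℕ) : ℝ)) * (3 * x) ^ k * (1 / 2 : ℝ) ^ (d - k)) := by
      intro d hd
      rw [Finset.mem_Ico] at hd
      have hdN : d ≤ N := by omega
      have hd1 : 1 ≤ d := by omega
      have h1 : (d.descFactorial k : ℝ) * (N : ℝ) ^ k ≤ Nk * (d : ℝ) ^ k := by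
        have := desc_pow N d k hdN
        rw [hNk]
        exact_mod_cast this
      have hB : a d * (d : ℝ) ^ d ≤
          ((d : ℝ) + 1) * (3 * ((N + 1 : ℕ) : ℝ)) * (3 * x) ^ d := by
        have := class_bound H q hq0 hq1 hyp d hd1
        rw [mul_assoc 3 ((N + 1 : ℕ) : ℝ) q] at this
        exact this
      have h2 := class_step (a d) x ((N + 1 : ℕ) : ℝ) d k (ha0 d) hx0 (by positivity) hd.1 hd1 hB
      calc (N : ℝ) ^ k * (a d * (d.descFactorial k : ℝ))
          = a d * ((d.descFactorial k : ℝ) * (N : ℝ) ^ k) := by ring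
        _ ≤ a d * (Nk * (d : ℝ) ^ k) := mul_le_mul_of_nonneg_left h1 (ha0 d)
        _ = Nk * (a d * (d : ℝ) ^ k) := by ring
        _ ≤ _ := mul_le_mul_of_nonneg_left h2 hNk0
    -- sum the per-class bounds
    have hsum : (N : ℝ) ^ k * (∑ d ∈ Ico k (N + 1), a d * (d.descFactorial k : ℝ)) ≤
        Nk * (((N + 1 : ℕ) : ℝ) * (6 * x) ^ k +
          3 * ((N + 1 : ℕ) : ℝ) * (3 * x) ^ k * (2 * (k : ℝ) + 4)) := by
      rw [Finset.mul_sum]
      refine (Finset.sum_le_sum hper).trans ?_
      rw [← Finset.mul_sum]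
      apply mul_le_mul_of_nonneg_left _ hNk0
      rw [Finset.sum_add_distrib]
      have hA : (∑ d ∈ Ico k (N + 1), a d * (6 * x) ^ k) ≤
          ((N + 1 : ℕ) : ℝ) * (6 * x) ^ k := by
        rw [← Finset.sum_mul]
        exact mul_le_mul_of_nonneg_right hcount (by positivity)
      have hB : (∑ d ∈ Ico k (N + 1),
          ((d : ℝ) + 1) * (3 * ((N + 1 : ℕ) : ℝ)) * (3 * x) ^ k * (1 / 2 : ℝ) ^ (d - k)) ≤
          3 * ((N + 1 : ℕ) : ℝ) * (3 * x) ^ k * (2 * (k : ℝ) + 4) := by
        have e : ∀ d ∈ Ico k (N + 1),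
            ((d : ℝ) + 1) * (3 * ((N + 1 : ℕ) : ℝ)) * (3 * x) ^ k * (1 / 2 : ℝ) ^ (d - k) =
            (3 * ((N + 1 : ℕ) : ℝ) * (3 * x) ^ k) * (((d : ℝ) + 1) * (1 / 2 : ℝ) ^ (d - k)) := by
          intro d _; ring
        rw [Finset.sum_congr rfl e, ← Finset.mul_sum]
        exact mul_le_mul_of_nonneg_left (geom_Ico k (N + 1)) (by positivity)
      linarith
    -- constants
    have hconst := const_bound k hk
    have hxk : x ^ k ≤ (2 : ℝ) ^ k * (N : ℝ) ^ k * q ^ k := by
      have h2N : ((N + 1 : ℕ) : ℝ) ≤ 2 * (N : ℝ) := by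
        push_cast
        have : (1 : ℝ) ≤ N := by exact_mod_cast hN1
        linarith
      have hxle : x ≤ 2 * (N : ℝ) * q := by
        rw [hx]; exact mul_le_mul_of_nonneg_right h2N hq0
      calc x ^ k ≤ (2 * (N : ℝ) * q) ^ k := pow_le_pow_left₀ hx0 hxle k
        _ = (2 : ℝ) ^ k * (N : ℝ) ^ k * q ^ k := by rw [mul_pow, mul_pow]
    have hfinal : Nk * (((N + 1 : ℕ) : ℝ) * (6 * x) ^ k +
          3 * ((N + 1 : ℕ) : ℝ) * (3 * x) ^ k * (2 * (k : ℝ) + 4)) ≤
        (N : ℝ) ^ k * ((((N + 1).descFactorial (k + 1) : ℕ) : ℝ) * (120 * q) ^ k) := by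
      have e1 : ((N + 1 : ℕ) : ℝ) * (6 * x) ^ k +
          3 * ((N + 1 : ℕ) : ℝ) * (3 * x) ^ k * (2 * (k : ℝ) + 4) =
          ((N + 1 : ℕ) : ℝ) * x ^ k * ((6 : ℝ) ^ k + 3 * (2 * (k : ℝ) + 4) * 3 ^ k) := by
        rw [mul_pow, mul_pow]; ring
      have e2 : (((N + 1).descFactorial (k + 1) : ℕ) : ℝ) = ((N + 1 : ℕ) : ℝ) * Nk := by
        rw [Nat.succ_descFactorial_succ, hNk]; push_cast; ring
      rw [e1, e2]
      have hn0 : (0 : ℝ) ≤ ((N + 1 : ℕ) : ℝ) := by positivity
      have hxk0 : 0 ≤ x ^ k := by positivity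
      calc Nk * (((N + 1 : ℕ) : ℝ) * x ^ k * ((6 : ℝ) ^ k + 3 * (2 * (k : ℝ) + 4) * 3 ^ k))
          ≤ Nk * (((N + 1 : ℕ) : ℝ) * x ^ k * (60 : ℝ) ^ k) := by
            apply mul_le_mul_of_nonneg_left _ hNk0
            exact mul_le_mul_of_nonneg_left hconst (mul_nonneg hn0 hxk0)
        _ ≤ Nk * (((N + 1 : ℕ) : ℝ) * ((2 : ℝ) ^ k * (N : ℝ) ^ k * q ^ k) * (60 : ℝ) ^ k) := by
            apply mul_le_mul_of_nonneg_left _ hNk0
            apply mul_le_mul_of_nonneg_right _ (by positivity)
            exact mul_le_mul_of_nonneg_left hxk hn0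
        _ = (N : ℝ) ^ k * (((N + 1 : ℕ) : ℝ) * Nk * (120 * q) ^ k) := by
            rw [mul_pow 120 q k]
            have : (120 : ℝ) ^ k = 2 ^ k * 60 ^ k := by rw [← mul_pow]; norm_num
            rw [this]; ring
    have hall := hsum.trans hfinal
    rw [hregroup, hrestrict]
    exact le_of_mul_le_mul_left hall (by positivity)

theorem main {n : ℕ} (H : SimpleGraph (Fin n)) (q : ℝ) (hq0 : 0 ≤ q)
    (hyp : ∀ F : SimpleGraph (Fin n), F ≤ H →
      1 ≤ ((⊤ : SimpleGraph (Fin n)).copyCount F : ℝ) * q ^ F.edgeSet.ncard)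
    (k : ℕ) :
    (H.labelledCopyCount (Star k) : ℝ) ≤
      ((⊤ : SimpleGraph (Fin n)).labelledCopyCount (Star k) : ℝ) * (min 1 (120 * q)) ^ k := by
  classical
  rw [labelled_star_top]
  have hS1 : (H.labelledCopyCount (Star k) : ℝ) ≤
      ∑ v : Fin n, (((H.neighborSet v).ncard).descFactorial k : ℝ) := by
    have := labelled_star_le H k
    exact_mod_cast this
  have htriv : (∑ v : Fin n, (((H.neighborSet v).ncard).descFactorial k : ℝ)) ≤
      (n.descFactorial (k + 1) : ℝ) := by
    rcases Nat.eq_zero_or_pos n with hn | hn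
    · subst hn; simp
    · obtain ⟨m, rfl⟩ := Nat.exists_eq_succ_of_ne_zero hn.ne'
      have hle : ∀ v : Fin (m + 1), ((H.neighborSet v).ncard).descFactorial k ≤ m.descFactorial k :=
        fun v => Nat.descFactorial_le k (by have := deg_le H v; simpa using this)
      have h2 : ∑ v : Fin (m + 1), ((H.neighborSet v).ncard).descFactorial k ≤
          (m + 1) * m.descFactorial k := by
        calc ∑ v : Fin (m + 1), ((H.neighborSet v).ncard).descFactorial k
            ≤ ∑ _v : Fin (m + 1), m.descFactorial k := Finset.sum_le_sum (fun v _ => hle v)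
          _ = (m + 1) * m.descFactorial k := by simp
      rw [Nat.succ_descFactorial_succ]
      exact_mod_cast h2
  rcases Nat.eq_zero_or_pos k with hk | hk
  · subst hk
    simpa using hS1.trans htriv
  · rcases le_total 1 (120 * q) with h | h
    · rw [min_eq_left h, one_pow, mul_one]
      exact hS1.trans htriv
    · have hq1 : q ≤ 1 := by linarith
      rw [min_eq_right h]
      exact hS1.trans (sum_desc_le H q hq0 hq1 hyp k hk)

end Vale.Agent.Lib.P064S
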